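import Vale.Agent.P259.Final

open CategoryTheory Vale.Agent.P259

/-- The Grothendieck homotopy hypothesis. `P` is any class of spaces containing the compactly
generated Hausdorff spaces (all spaces, compactly generated spaces, CGWH, CGH, ...). -/
theorem Vale.Agent.Results.P259.HomotopyHypothesis.result (K : Coherator)
    (P : ObjectProperty TopCat.{0})
    (hP : ∀ Y : TopCat.{0}, T2Space Y → CompactlyGeneratedSpace Y → P Y) :
    ∃ (D : K.C.Obj ⥤ P.FullSubcategory) (hD : IsDiscFunctor D), ∀ κ : IdLifts K.C,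
      InducesEquiv (PiInf D hD) (WHE.inverseImage P.ι) κ.W :=
  let ⟨D, hD, h⟩ := main K P hP
  ⟨D, hD, fun κ => ⟨fun _ _ f hf => (h κ).1 f hf, (h κ).2⟩⟩
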