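import Vale.Agent.P259.Final
import Vale.Agent.P259.ExD

open CategoryTheory Vale.Agent.P259

/-- Coherators exist, and the Grothendieck homotopy hypothesis holds for every coherator. `P` is
any class of spaces containing the compactly generated Hausdorff spaces. -/
theorem Vale.Agent.Results.P259.HomotopyHypothesisNV.result :
    Nonempty Coherator ∧ ∀ (K : Coherator) (P : ObjectProperty TopCat.{0}),
      (∀ Y : TopCat.{0}, T2Space Y → CompactlyGeneratedSpace Y → P Y) →
      ∃ (D : K.C.Obj ⥤ P.FullSubcategory) (hD : IsDiscFunctor D), ∀ κ : IdLifts K.C,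
        InducesEquiv (PiInf D hD) (WHE.inverseImage P.ι) κ.W :=
  ⟨nonempty_coherator, fun K P hP =>
    let ⟨D, hD, h⟩ := main K P hP
    ⟨D, hD, fun κ => ⟨fun _ _ f hf => (h κ).1 f hf, (h κ).2⟩⟩⟩
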